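import Vale.Agent.Lib.P069.Defs

namespace Vale.Agent.Results.P069.GroupSymmetrization

open Vale.Agent.Lib.P069

/-- Symmetrization over a bounded group containing asymptotic reflections turns an AMUC norm
into an equivalent AUC norm. -/
theorem result {X : Type*} [NormedAddCommGroup X] [NormedSpace ℝ X]
    (N : Seminorm ℝ X) (hN : IsEquivNorm N) (hAMUC : IsAMUC N)
    (G : Subgroup (X ≃L[ℝ] X)) (K : ℝ) (hK : ∀ g ∈ G, ∀ x : X, N (g x) ≤ K * N x)
    (hG : ∀ x : X, ∀ ε : ℝ, 0 < ε → ∃ F : Submodule ℝ X, IsCof F ∧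
        ∃ h ∈ G, N (h x - x) ≤ ε ∧ ∀ y ∈ F, h y = -y) :
    ∃ M : Seminorm ℝ X, (∀ x : X, M x = ⨆ g : G, N ((g : X ≃L[ℝ] X) x)) ∧
      IsEquivNorm M ∧ IsAUC M := by
  classical
  set K' : ℝ := max K 1 with hK'
  have hK'1 : 1 ≤ K' := le_max_right _ _
  have hK'le : ∀ g ∈ G, ∀ x : X, N (g x) ≤ K' * N x := fun g hg x =>
    (hK g hg x).trans (mul_le_mul_of_nonneg_right (le_max_left _ _) (apply_nonneg N x))
  have hbdd : ∀ x : X, BddAbove (Set.range fun g : G => N ((g : X ≃L[ℝ] X) x)) := by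
    intro x
    refine ⟨K' * N x, ?_⟩
    rintro _ ⟨g, rfl⟩
    exact hK'le g.1 g.2 x
  let Mf : X → ℝ := fun x => ⨆ g : G, N ((g : X ≃L[ℝ] X) x)
  have hle : ∀ (g : G) (x : X), N ((g : X ≃L[ℝ] X) x) ≤ Mf x := fun g x => le_ciSup (hbdd x) g
  have hNM : ∀ x, N x ≤ Mf x := fun x => hle 1 x
  have hMK : ∀ x, Mf x ≤ K' * N x := fun x => ciSup_le fun g => hK'le g.1 g.2 x
  let M : Seminorm ℝ X := Seminorm.of Mf
    (by
      intro x y
      refine ciSup_le fun g => ?_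
      rw [map_add]
      exact (map_add_le_add N _ _).trans (add_le_add (hle g x) (hle g y)))
    (by
      intro a x
      show (⨆ g : G, N ((g : X ≃L[ℝ] X) (a • x))) = ‖a‖ * ⨆ g : G, N ((g : X ≃L[ℝ] X) x)
      rw [Real.mul_iSup_of_nonneg (norm_nonneg a)]
      congr 1
      ext g
      rw [map_smul, map_smul_eq_mul])
  have hMdef : ∀ x : X, M x = Mf x := fun x => rfl
  refine ⟨M, fun x => rfl, ?_, ?_⟩
  · obtain ⟨c, C, hc, hC, hcC⟩ := hN
    refine ⟨c, K' * C, hc, by positivity, fun x => ⟨?_, ?_⟩⟩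
    · exact (hcC x).1.trans (hNM x)
    · calc M x ≤ K' * N x := hMK x
        _ ≤ K' * (C * ‖x‖) := mul_le_mul_of_nonneg_left (hcC x).2 (by linarith)
        _ = K' * C * ‖x‖ := by ring
  · intro t ht
    have hK'pos : 0 < K' := by linarith
    obtain ⟨δ₀, hδ₀, hA⟩ := hAMUC (t / K') (div_pos ht hK'pos)
    refine ⟨δ₀ / 2, by linarith, ?_⟩
    intro x hx
    have hx' : Mf x = 1 := hx
    set η : ℝ := δ₀ / (4 * (1 + δ₀)) with hη
    have hηpos : 0 < η := by positivity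
    have hηeq : η * (1 + δ₀) = δ₀ / 4 := by rw [hη]; field_simp
    have hη1 : η < 1 := by nlinarith
    obtain ⟨g₀, hg₀⟩ : ∃ g₀ : G, 1 - η < N ((g₀ : X ≃L[ℝ] X) x) := by
      have : 1 - η < Mf x := by rw [hx']; linarith
      exact exists_lt_of_lt_ciSup this
    set x₀ : X := (g₀ : X ≃L[ℝ] X) x with hx₀
    set r : ℝ := N x₀ with hr
    have hr1 : r ≤ 1 := by
      have := hle g₀ x
      rwa [hx'] at this
    have hrpos : 0 < r := by linarith
    have hxhat : N (r⁻¹ • x₀) = 1 := by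
      rw [map_smul_eq_mul, Real.norm_of_nonneg (inv_nonneg.mpr hrpos.le)]
      exact inv_mul_cancel₀ hrpos.ne'
    obtain ⟨F₀, hF₀, hF₀'⟩ := hA (r⁻¹ • x₀) hxhat
    obtain ⟨F₁, hF₁, h, hhG, hhx, hhy⟩ := hG x₀ (δ₀ / 4) (by linarith)
    refine ⟨(F₀ ⊓ F₁).comap (((g₀ : X ≃L[ℝ] X) : X →L[ℝ] X) : X →ₗ[ℝ] X),
      (hF₀.inf hF₁).comap _, ?_⟩
    intro y hy hMy
    have hMy' : Mf y = 1 := hMy
    set y₀ : X := (g₀ : X ≃L[ℝ] X) y with hy₀
    have hy₀F : y₀ ∈ F₀ ⊓ F₁ := hy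
    set ρ : ℝ := N y₀ with hρ
    have hρ1 : 1 ≤ K' * ρ := by
      have : Mf y ≤ K' * ρ := by
        refine ciSup_le fun g => ?_
        have h1 := hK'le (g.1 * g₀.1⁻¹) (G.mul_mem g.2 (G.inv_mem g₀.2)) y₀
        have h2 : (g.1 * g₀.1⁻¹) y₀ = (g : X ≃L[ℝ] X) y := by
          rw [hy₀]
          show g.1 (g₀.1⁻¹ (g₀.1 y)) = g.1 y
          congr 1
          exact ContinuousLinearEquiv.symm_apply_apply g₀.1 y
        rwa [h2] at h1
      rwa [hMy'] at this
    have hρpos : 0 < ρ := by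
      by_contra hneg
      have hneg' := not_lt.mp hneg
      nlinarith
    have hρle : ρ ≤ 1 := by
      have := hle g₀ y
      rwa [hMy'] at this
    -- the normalised direction
    have hyhatF : ρ⁻¹ • y₀ ∈ F₀ := F₀.smul_mem _ hy₀F.1
    have hyhat : N (ρ⁻¹ • y₀) = 1 := by
      rw [map_smul_eq_mul, Real.norm_of_nonneg (inv_nonneg.mpr hρpos.le)]
      exact inv_mul_cancel₀ hρpos.ne'
    have hbase := hF₀' (ρ⁻¹ • y₀) hyhatF hyhat
    have hscale : t / K' ≤ t * ρ / r := by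
      rw [div_le_div_iff₀ hK'pos hrpos]
      nlinarith
    have hmono := max_mono_scale N hxhat (div_pos ht hK'pos) hscale hδ₀.le hbase
    have e1 : r⁻¹ • x₀ + (t * ρ / r) • ρ⁻¹ • y₀ = r⁻¹ • (x₀ + t • y₀) := by
      rw [smul_add, smul_smul, smul_smul]
      congr 2
      field_simp
    have e2 : r⁻¹ • x₀ - (t * ρ / r) • ρ⁻¹ • y₀ = r⁻¹ • (x₀ - t • y₀) := by
      rw [smul_sub, smul_smul, smul_smul]
      congr 2
      field_simp
    rw [e1, e2, map_smul_eq_mul, map_smul_eq_mul,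
      Real.norm_of_nonneg (inv_nonneg.mpr hrpos.le)] at hmono
    -- lower bounds for `M (x + t • y)`
    have hplus : N (x₀ + t • y₀) ≤ M (x + t • y) := by
      have := hle g₀ (x + t • y)
      rwa [map_add, map_smul] at this
    have hminus : N (x₀ - t • y₀) - δ₀ / 4 ≤ M (x + t • y) := by
      have h1 := hle ⟨h * g₀.1, G.mul_mem hhG g₀.2⟩ (x + t • y)
      have h2 : (h * g₀.1) (x + t • y) = h x₀ - t • y₀ := by
        show h (g₀.1 (x + t • y)) = h x₀ - t • y₀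
        rw [map_add, map_smul, map_add, map_smul, hhy y₀ hy₀F.2, smul_neg, ← sub_eq_add_neg]
      have h3 : N (x₀ - t • y₀) ≤ N (h x₀ - t • y₀) + N (h x₀ - x₀) := by
        have e : x₀ - t • y₀ = (h x₀ - t • y₀) - (h x₀ - x₀) := by abel
        rw [e]
        exact map_sub_le_add N _ _
      have h4 : N ((h * g₀.1) (x + t • y)) ≤ M (x + t • y) := h1
      rw [h2] at h4
      linarith
    have hfin : r * (1 + δ₀) ≤ max (N (x₀ + t • y₀)) (N (x₀ - t • y₀)) := by
      rcases le_max_iff.mp hmono with h' | h'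
      · refine le_max_of_le_left ?_
        have := mul_le_mul_of_nonneg_left h' hrpos.le
        rwa [← mul_assoc, mul_inv_cancel₀ hrpos.ne', one_mul] at this
      · refine le_max_of_le_right ?_
        have := mul_le_mul_of_nonneg_left h' hrpos.le
        rwa [← mul_assoc, mul_inv_cancel₀ hrpos.ne', one_mul] at this
    have hr_lower : (1 - η) * (1 + δ₀) ≤ r * (1 + δ₀) :=
      mul_le_mul_of_nonneg_right hg₀.le (by linarith)
    rcases le_max_iff.mp hfin with h' | h'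
    · nlinarith
    · nlinarith

end Vale.Agent.Results.P069.GroupSymmetrization
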