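import Vale.Agent.Lib.P069.JTDual
import Vale.Agent.Lib.P069.JTRefl
import Vale.Agent.Lib.P069.JTTree

namespace Vale.Agent.Results.P069.ReflexiveAMUCNotAUC

open Vale.Agent.Lib.P069

/-- There is a reflexive (infinite-dimensional) real Banach space whose own norm is
asymptotically midpoint uniformly convex, yet which has no equivalent asymptotically
uniformly convex norm. -/
theorem result :
    ∃ (X : Type) (_ : NormedAddCommGroup X) (_ : NormedSpace ℝ X) (_ : CompleteSpace X),
      Function.Surjective (NormedSpace.inclusionInDoubleDual ℝ X) ∧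
      ¬ FiniteDimensional ℝ X ∧
      (∃ N : Seminorm ℝ X, IsEquivNorm N ∧ IsAMUC N) ∧
      ¬ ∃ M : Seminorm ℝ X, IsEquivNorm M ∧ IsAUC M := by
  have hnot := not_auc_dual
  refine ⟨JT →L[ℝ] ℝ, inferInstance, inferInstance, inferInstance, reflexive_dual, ?_,
    ⟨normSeminorm ℝ (JT →L[ℝ] ℝ), ⟨1, 1, one_pos, one_pos, fun x => ?_⟩, isAMUC_dual⟩, hnot⟩
  · intro hfd
    refine hnot ⟨normSeminorm ℝ (JT →L[ℝ] ℝ), ⟨1, 1, one_pos, one_pos, fun x => ?_⟩, ?_⟩
    · simp
    · intro t _
      refine ⟨1, one_pos, fun x _ => ⟨⊥, ⟨?_, ?_⟩, ?_⟩⟩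
      · exact isClosed_singleton
      · exact Module.Finite.quotient ℝ _
      · intro y hy hy1
        rw [Submodule.mem_bot] at hy
        rw [hy] at hy1
        simp at hy1
  · simp

end Vale.Agent.Results.P069.ReflexiveAMUCNotAUC
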